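import Vale.Agent.P097.H365.Patch

/-!
# P097, Case II : the field of fractions of the analytic functions on an open set, with its
partial derivatives (helper690)
-/

namespace Vale.Agent.P097.H690

open Set Filter Topology Metric Vale.Agent.P097.H365

/-! ## derivations of a domain extend to the field of fractions -/

section frac

variable {k A K : Type*} [CommRing k] [CommRing A] [Field K] [Algebra A K]
  [IsFractionRing A K] [Algebra k K]

theorem exists_frac [Algebra k A] [IsScalarTower k A K] [IsDomain A] (D : Derivation k A A) :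
    ∃ D' : Derivation k K K, ∀ a : A, D' (algebraMap A K a) = algebraMap A K (D a) := by
  set ι := algebraMap A K with hι
  have hιinj : Function.Injective ι := IsFractionRing.injective A K
  let Φ₀ : A →+* TrivSqZeroExt K K :=
    { toFun := fun a => TrivSqZeroExt.inl (ι a) + TrivSqZeroExt.inr (ι (D a))
      map_one' := by
        apply TrivSqZeroExt.ext <;> simp
      map_mul' := fun a b => by
        apply TrivSqZeroExt.ext
        · simp
        · simp only [TrivSqZeroExt.snd_add, TrivSqZeroExt.snd_inl, TrivSqZeroExt.snd_inr, zero_add,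
            TrivSqZeroExt.snd_mul, TrivSqZeroExt.fst_add, TrivSqZeroExt.fst_inl,
            TrivSqZeroExt.fst_inr, add_zero, Derivation.leibniz, smul_eq_mul, map_add, map_mul,
            op_smul_eq_smul]
      map_zero' := by
        apply TrivSqZeroExt.ext <;> simp
      map_add' := fun a b => by
        apply TrivSqZeroExt.ext <;> simp }
  have hΦ₀ : ∀ a, Φ₀ a = TrivSqZeroExt.inl (ι a) + TrivSqZeroExt.inr (ι (D a)) := fun _ => rfl
  let fst : TrivSqZeroExt K K →+* K := (TrivSqZeroExt.fstHom K K K : TrivSqZeroExt K K →+* K)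
  have hfst : ∀ z, fst z = z.fst := fun _ => rfl
  have hunit : ∀ y : nonZeroDivisors A, IsUnit (Φ₀ y) := by
    intro y
    rw [TrivSqZeroExt.isUnit_iff_isUnit_fst]
    have h2 : (Φ₀ y).fst = ι y := by
      rw [hΦ₀]
      simp
    rw [h2]
    exact IsUnit.mk0 _ ((map_ne_zero_iff ι hιinj).2 (nonZeroDivisors.ne_zero y.2))
  let Φ : K →+* TrivSqZeroExt K K := IsLocalization.lift (M := nonZeroDivisors A) hunit
  have hΦ : ∀ f, Φ (ι f) = Φ₀ f := fun f => IsLocalization.lift_eq _ _
  have h3 : fst.comp Φ = RingHom.id K := by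
    refine IsLocalization.ringHom_ext (nonZeroDivisors A) ?_
    ext a
    rw [RingHom.comp_apply, RingHom.comp_apply, ← hι, hΦ, hfst, hΦ₀]
    simp
  have h4 : ∀ x, (Φ x).fst = x := fun x => congrArg (fun f => f x) h3
  have hadd : ∀ x y, (Φ (x + y)).snd = (Φ x).snd + (Φ y).snd := fun x y => by
    rw [map_add, TrivSqZeroExt.snd_add]
  have hmul : ∀ x y, (Φ (x * y)).snd = x * (Φ y).snd + y * (Φ x).snd := fun x y => by
    rw [map_mul, TrivSqZeroExt.snd_mul, h4, h4]
    simp only [smul_eq_mul, op_smul_eq_smul]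
  refine ⟨Derivation.mk' { toFun := fun x => (Φ x).snd, map_add' := hadd, map_smul' := ?_ } ?_, ?_⟩
  · intro c x
    have e1 : c • x = ι (algebraMap k A c) * x := by
      rw [hι, ← IsScalarTower.algebraMap_apply, Algebra.smul_def]
    rw [e1, hmul, hΦ, hΦ₀, Derivation.map_algebraMap]
    simp only [map_zero, TrivSqZeroExt.snd_add, TrivSqZeroExt.snd_inl, TrivSqZeroExt.snd_inr,
      mul_zero, add_zero, RingHom.id_apply]
    rw [hι, ← IsScalarTower.algebraMap_apply, ← Algebra.smul_def]
  · intro x y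
    change (Φ (x * y)).snd = x • (Φ y).snd + y • (Φ x).snd
    rw [hmul, smul_eq_mul, smul_eq_mul]
  · intro a
    change (Φ (ι a)).snd = ι (D a)
    rw [hΦ, hΦ₀]
    simp

/-- two derivations of the field of fractions which agree on the ring are equal -/
theorem frac_ext {D D' : Derivation k K K}
    (h : ∀ a : A, D (algebraMap A K a) = D' (algebraMap A K a)) : D = D' := by
  refine Derivation.ext fun x => ?_
  obtain ⟨a, b, hb, rfl⟩ := IsFractionRing.div_surjective (A := A) x
  have hb0 : algebraMap A K b ≠ 0 := by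
    have := IsLocalization.map_units K (⟨b, hb⟩ : nonZeroDivisors A)
    exact this.ne_zero
  have key : ∀ δ : Derivation k K K, δ (algebraMap A K a / algebraMap A K b) =
      (δ (algebraMap A K a) - algebraMap A K a / algebraMap A K b * δ (algebraMap A K b)) /
        algebraMap A K b := by
    intro δ
    have h1 := δ.leibniz (algebraMap A K a / algebraMap A K b) (algebraMap A K b)
    rw [div_mul_cancel₀ _ hb0, smul_eq_mul, smul_eq_mul] at h1
    rw [h1]
    field_simp
    ring
  rw [key, key, h, h]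

end frac

variable {E : Type*} [NormedAddCommGroup E] [NormedSpace ℂ E] {U : Set E}

/-- an analytic representative -/
noncomputable def rep (g : An U) : E → ℂ := g.2.choose

theorem rep_an (g : An U) : AnalyticOnNhd ℂ (rep g) U := g.2.choose_spec.1

theorem rep_eq (g : An U) (u : U) : (g : U → ℂ) u = rep g u := g.2.choose_spec.2 u

theorem toAn_rep (g : An U) : toAn (rep g) (rep_an g) = g :=
  An.ext' fun u => by
    rw [evA_toAn]
    exact (rep_eq g u).symm

theorem toAn_eq_iff {F G : E → ℂ} {hF : AnalyticOnNhd ℂ F U} {hG : AnalyticOnNhd ℂ G U} :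
    toAn F hF = toAn G hG ↔ EqOn F G U := by
  constructor
  · intro h u hu
    have := congrArg (evA (⟨u, hu⟩ : U)) h
    simpa using this
  · intro h
    exact An.ext' fun u => by simpa using h u.2

theorem exists_toAn (g : An U) : ∃ (F : E → ℂ) (hF : AnalyticOnNhd ℂ F U), g = toAn F hF :=
  ⟨rep g, rep_an g, (toAn_rep g).symm⟩

theorem toAn_add {F G : E → ℂ} (hF : AnalyticOnNhd ℂ F U) (hG : AnalyticOnNhd ℂ G U) :
    toAn F hF + toAn G hG = toAn (fun x => F x + G x) (hF.add hG) := rfl

theorem toAn_sub {F G : E → ℂ} (hF : AnalyticOnNhd ℂ F U) (hG : AnalyticOnNhd ℂ G U) :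
    toAn F hF - toAn G hG = toAn (fun x => F x - G x) (hF.sub hG) := rfl

theorem toAn_mul {F G : E → ℂ} (hF : AnalyticOnNhd ℂ F U) (hG : AnalyticOnNhd ℂ G U) :
    toAn F hF * toAn G hG = toAn (fun x => F x * G x) (hF.mul hG) := rfl

theorem toAn_neg {F : E → ℂ} (hF : AnalyticOnNhd ℂ F U) :
    -toAn F hF = toAn (fun x => -F x) hF.neg := rfl

theorem toAn_smul (c : ℂ) {F : E → ℂ} (hF : AnalyticOnNhd ℂ F U) :
    c • toAn F hF = toAn (fun x => c * F x) (analyticOnNhd_const.mul hF) := rfl

theorem toAn_const (c : ℂ) : (toAn (fun _ : E => c) analyticOnNhd_const : An U) =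
    algebraMap ℂ (An U) c := rfl

theorem toAn_pow {F : E → ℂ} (hF : AnalyticOnNhd ℂ F U) (n : ℕ) :
    toAn F hF ^ n = toAn (fun x => F x ^ n) (hF.pow n) := rfl

theorem rep_toAn {F : E → ℂ} (hF : AnalyticOnNhd ℂ F U) : EqOn (rep (toAn F hF)) F U :=
  fun u hu => (rep_eq (toAn F hF) ⟨u, hu⟩).symm

/-! ## directional derivatives -/

theorem an_dir {F : E → ℂ} (hF : AnalyticOnNhd ℂ F U) (v : E) :
    AnalyticOnNhd ℂ (fun x => fderiv ℂ F x v) U := fun x hx =>
  ((ContinuousLinearMap.apply ℂ ℂ v).analyticAt _).comp (hF.fderiv x hx)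

theorem fderiv_congr (hU : IsOpen U) {F G : E → ℂ} (h : EqOn F G U) {u : E} (hu : u ∈ U) :
    fderiv ℂ F u = fderiv ℂ G u :=
  (h.eventuallyEq_of_mem (hU.mem_nhds hu)).fderiv_eq

/-- `U` is open, connected and not empty -/
class Dom (U : Set E) : Prop where
  o : IsOpen U
  c : IsPreconnected U
  n : U.Nonempty

instance Dom.isDomain [hU : Dom U] : IsDomain (An U) := An.isDomain hU.o hU.c hU.n

theorem Dom.ball {x : E} {r : ℝ} (hr : 0 < r) : Dom (ball x r) :=
  ⟨isOpen_ball, (convex_ball _ _).isPreconnected, ⟨x, mem_ball_self hr⟩⟩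

/-- directional derivative of the analytic functions on the open set `U`, as a function -/
noncomputable def dAf (v : E) (g : An U) : An U :=
  toAn (fun x => fderiv ℂ (rep g) x v) (an_dir (rep_an g) v)

/-- the field of fractions of `An U` -/
def Mf (U : Set E) [Dom U] : Type _ := FractionRing (An U)

section der

variable [hU : Dom U]

theorem dAf_toAn (v : E) {F : E → ℂ} (hF : AnalyticOnNhd ℂ F U) :
    dAf v (toAn F hF) = toAn (fun x => fderiv ℂ F x v) (an_dir hF v) := by
  rw [dAf, toAn_eq_iff]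
  intro u hu
  change fderiv ℂ (rep (toAn F hF)) u v = fderiv ℂ F u v
  rw [fderiv_congr hU.o (rep_toAn hF) hu]

/-- directional derivative of the analytic functions on the open set `U` -/
noncomputable def dA (v : E) : Derivation ℂ (An U) (An U) :=
  Derivation.mk'
    { toFun := dAf v
      map_add' := fun a b => by
        obtain ⟨F, hF, rfl⟩ := exists_toAn a
        obtain ⟨G, hG, rfl⟩ := exists_toAn b
        rw [toAn_add, dAf_toAn, dAf_toAn, dAf_toAn, toAn_add, toAn_eq_iff]
        intro u hu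
        exact congrArg (fun L => L v) (fderiv_add (hF u hu).differentiableAt (hG u hu).differentiableAt)
      map_smul' := fun c a => by
        obtain ⟨F, hF, rfl⟩ := exists_toAn a
        rw [RingHom.id_apply, toAn_smul, dAf_toAn, dAf_toAn, toAn_smul, toAn_eq_iff]
        intro u hu
        exact congrArg (fun L => L v) (fderiv_const_mul (hF u hu).differentiableAt c) }
    fun a b => by
      change dAf v (a * b) = a * dAf v b + b * dAf v a
      obtain ⟨F, hF, rfl⟩ := exists_toAn a
      obtain ⟨G, hG, rfl⟩ := exists_toAn b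
      rw [toAn_mul, dAf_toAn, dAf_toAn, dAf_toAn, toAn_mul, toAn_mul, toAn_add,
        toAn_eq_iff]
      intro u hu
      exact congrArg (fun L => L v) (fderiv_mul (hF u hu).differentiableAt (hG u hu).differentiableAt)

theorem dA_toAn (v : E) {F : E → ℂ} (hF : AnalyticOnNhd ℂ F U) :
    dA v (toAn F hF) = toAn (fun x => fderiv ℂ F x v) (an_dir hF v) := dAf_toAn v hF

theorem dA_comm (v w : E) (g : An U) : dA v (dA w g) = dA w (dA v g) := by
  obtain ⟨F, hF, rfl⟩ := exists_toAn g
  rw [dA_toAn, dA_toAn, dA_toAn, dA_toAn, toAn_eq_iff]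
  intro u hu
  have h1 : DifferentiableAt ℂ (fderiv ℂ F) u := (hF.fderiv u hu).differentiableAt
  have h2 : ∀ a b : E, fderiv ℂ (fun x => fderiv ℂ F x a) u b = fderiv ℂ (fderiv ℂ F) u b a := by
    intro a b
    have h3 : HasFDerivAt (fun x => fderiv ℂ F x a)
        ((ContinuousLinearMap.apply ℂ ℂ a).comp (fderiv ℂ (fderiv ℂ F) u)) u :=
      (ContinuousLinearMap.apply ℂ ℂ a).hasFDerivAt.comp u h1.hasFDerivAt
    rw [h3.fderiv]
    rfl
  change fderiv ℂ (fun x => fderiv ℂ F x w) u v = fderiv ℂ (fun x => fderiv ℂ F x v) u w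
  rw [h2, h2]
  have h4 : ContDiffAt ℂ (minSmoothness ℂ 2) F u := (hF u hu).contDiffAt
  exact (h4.isSymmSndFDerivAt le_rfl).eq v w

/-! ## the field of fractions of the analytic functions on `U` -/

noncomputable instance : Field (Mf U) := inferInstanceAs (Field (FractionRing (An U)))

noncomputable instance : Algebra (An U) (Mf U) :=
  inferInstanceAs (Algebra (An U) (FractionRing (An U)))

instance : IsFractionRing (An U) (Mf U) :=
  inferInstanceAs (IsFractionRing (An U) (FractionRing (An U)))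

noncomputable instance : Algebra ℂ (Mf U) :=
  ((algebraMap (An U) (Mf U)).comp (algebraMap ℂ (An U))).toAlgebra

instance : IsScalarTower ℂ (An U) (Mf U) := IsScalarTower.of_algebraMap_eq fun _ => rfl

instance : CharZero (Mf U) := charZero_of_injective_algebraMap (algebraMap ℂ (Mf U)).injective

/-- the directional derivative on the field of fractions -/
noncomputable def dM (v : E) : Derivation ℂ (Mf U) (Mf U) := 
  (exists_frac (k := ℂ) (A := An U) (K := Mf U) (dA v)).choose

theorem dM_algebraMap (v : E) (g : An U) :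
    dM v (algebraMap (An U) (Mf U) g) = algebraMap (An U) (Mf U) (dA v g) :=
  (exists_frac (k := ℂ) (A := An U) (K := Mf U) (dA v)).choose_spec g

/-- the element of the field of fractions given by an analytic function -/
noncomputable def toM (F : E → ℂ) (hF : AnalyticOnNhd ℂ F U) : Mf U :=
  algebraMap (An U) (Mf U) (toAn F hF)

theorem toM_inj {F G : E → ℂ} {hF : AnalyticOnNhd ℂ F U}
    {hG : AnalyticOnNhd ℂ G U} : toM F hF = toM G hG ↔ EqOn F G U := by
  rw [toM, toM, (IsFractionRing.injective (An U) (Mf U)).eq_iff, toAn_eq_iff]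

theorem toM_congr {F G : E → ℂ} {hF : AnalyticOnNhd ℂ F U} (h : EqOn F G U)
    (hG : AnalyticOnNhd ℂ G U) : toM F hF = toM G hG := toM_inj.2 h

theorem toM_add {F G : E → ℂ} (hF : AnalyticOnNhd ℂ F U) (hG : AnalyticOnNhd ℂ G U) :
    toM F hF + toM G hG = toM (fun x => F x + G x) (hF.add hG) := by
  rw [toM, toM, ← map_add]; rfl

theorem toM_sub {F G : E → ℂ} (hF : AnalyticOnNhd ℂ F U) (hG : AnalyticOnNhd ℂ G U) :
    toM F hF - toM G hG = toM (fun x => F x - G x) (hF.sub hG) := by
  rw [toM, toM, ← map_sub]; rfl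

theorem toM_mul {F G : E → ℂ} (hF : AnalyticOnNhd ℂ F U) (hG : AnalyticOnNhd ℂ G U) :
    toM F hF * toM G hG = toM (fun x => F x * G x) (hF.mul hG) := by
  rw [toM, toM, ← map_mul]; rfl

theorem toM_neg {F : E → ℂ} (hF : AnalyticOnNhd ℂ F U) :
    -toM F hF = toM (fun x => -F x) hF.neg := by
  rw [toM, ← map_neg]; rfl

theorem toM_pow {F : E → ℂ} (hF : AnalyticOnNhd ℂ F U) (n : ℕ) :
    toM F hF ^ n = toM (fun x => F x ^ n) (hF.pow n) := by
  rw [toM, ← map_pow]; rfl

theorem toM_const (c : ℂ) : toM (fun _ : E => c) (analyticOnNhd_const (s := U)) =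
    algebraMap ℂ (Mf U) c := rfl

theorem toM_smul (c : ℂ) {F : E → ℂ} (hF : AnalyticOnNhd ℂ F U) :
    c • toM F hF = toM (fun x => c * F x) (analyticOnNhd_const.mul hF) := by
  rw [Algebra.smul_def, ← toM_const, toM_mul]

theorem toM_zero : toM (fun _ : E => 0) (analyticOnNhd_const (s := U)) = 0 := by
  rw [toM_const, map_zero]

theorem toM_one : toM (fun _ : E => 1) (analyticOnNhd_const (s := U)) = 1 := by
  rw [toM_const, map_one]

theorem toM_eq_zero {F : E → ℂ} {hF : AnalyticOnNhd ℂ F U} :
    toM F hF = 0 ↔ ∀ x ∈ U, F x = 0 := by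
  rw [← toM_zero, toM_inj]
  rfl

theorem toM_ne_zero {F : E → ℂ} {hF : AnalyticOnNhd ℂ F U} {x : E}
    (hx : x ∈ U) (h : F x ≠ 0) : toM F hF ≠ 0 := fun h0 => h (toM_eq_zero.1 h0 x hx)

theorem dM_toM (v : E) {F : E → ℂ} (hF : AnalyticOnNhd ℂ F U) :
    dM v (toM F hF) = toM (fun x => fderiv ℂ F x v) (an_dir hF v) := by
  rw [toM, dM_algebraMap, dA_toAn]
  rfl

/-- every element is a quotient of two analytic functions -/
theorem exists_toM_div (x : Mf U) :
    ∃ (F G : E → ℂ) (hF : AnalyticOnNhd ℂ F U) (hG : AnalyticOnNhd ℂ G U),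
      toM G hG ≠ 0 ∧ x = toM F hF / toM G hG := by
  obtain ⟨a, b, hb, rfl⟩ := IsFractionRing.div_surjective (A := An U) x
  obtain ⟨F, hF, rfl⟩ := exists_toAn a
  obtain ⟨G, hG, rfl⟩ := exists_toAn b
  exact ⟨F, G, hF, hG,
    (IsLocalization.map_units (Mf U) (⟨toAn G hG, hb⟩ : nonZeroDivisors (An U))).ne_zero, rfl⟩

theorem der_div {k K : Type*} [CommRing k] [Field K] [Algebra k K] (δ : Derivation k K K)
    (a b : K) (hb : b ≠ 0) : δ (a / b) = (δ a - a / b * δ b) / b := by
  have h1 := δ.leibniz (a / b) b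
  rw [div_mul_cancel₀ _ hb, smul_eq_mul, smul_eq_mul] at h1
  rw [h1]
  field_simp
  ring

theorem dM_comm (v w : E) (x : Mf U) : dM v (dM w x) = dM w (dM v x) := by
  -- the commutator is a derivation which vanishes on `An U`
  set a : Derivation ℂ (Mf U) (Mf U) := dM v with ha
  set b : Derivation ℂ (Mf U) (Mf U) := dM w with hb
  have h : ⁅a, b⁆ = 0 := by
    refine frac_ext (A := An U) fun g => ?_
    rw [Derivation.commutator_apply, ha, hb, dM_algebraMap, dM_algebraMap, dM_algebraMap,
      dM_algebraMap, dA_comm v w, sub_self]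
    rfl
  have h1 : ⁅a, b⁆ x = 0 := by rw [h]; rfl
  rw [Derivation.commutator_apply] at h1
  exact sub_eq_zero.1 h1

end der

/-! ## restriction to a smaller open set -/

section res

variable {V : Set E}

/-- restriction `An U → An V` for `V ⊆ U` -/
noncomputable def resA (h : V ⊆ U) : An U →ₐ[ℂ] An V where
  toFun g := ⟨fun x => (g : U → ℂ) ⟨x, h x.2⟩, rep g, (rep_an g).mono h,
    fun x => rep_eq g _⟩
  map_one' := rfl
  map_mul' _ _ := rfl
  map_zero' := rfl
  map_add' _ _ := rfl
  commutes' _ := rfl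

theorem resA_toAn (h : V ⊆ U) {F : E → ℂ} (hF : AnalyticOnNhd ℂ F U) :
    resA h (toAn F hF) = toAn F (hF.mono h) := rfl

variable [hU : Dom U] [hV : Dom V]

theorem resA_inj (h : V ⊆ U) : Function.Injective (resA h) := by
  rw [injective_iff_map_eq_zero]
  intro g
  obtain ⟨F, hF, rfl⟩ := exists_toAn g
  intro h0
  obtain ⟨v, hv⟩ := hV.n
  refine An.eq_zero hU.c (h hv) ?_ hU.o
  filter_upwards [hV.o.mem_nhds hv] with u hu hu'
  rw [resA_toAn] at h0
  have h1 : evA (⟨u, hu⟩ : V) (toAn F (hF.mono h)) = 0 := by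
    have h2 : toAn F (hF.mono h) = 0 := h0
    rw [h2]
    exact map_zero (evA (⟨u, hu⟩ : V))
  exact h1

/-- restriction of the fields of fractions -/
noncomputable def resM (h : V ⊆ U) : Mf U →+* Mf V :=
  IsFractionRing.lift (A := An U) (K := Mf U)
    (g := (algebraMap (An V) (Mf V)).comp (resA h).toRingHom)
    ((IsFractionRing.injective (An V) (Mf V)).comp (resA_inj h))

theorem resM_algebraMap (h : V ⊆ U) (g : An U) :
    resM h (algebraMap (An U) (Mf U) g) = algebraMap (An V) (Mf V) (resA h g) :=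
  IsFractionRing.lift_algebraMap _ _

theorem resM_toM (h : V ⊆ U) {F : E → ℂ} (hF : AnalyticOnNhd ℂ F U) :
    resM h (toM F hF) = toM F (hF.mono h) := by
  rw [toM, resM_algebraMap, resA_toAn]
  rfl

theorem resM_dM (h : V ⊆ U) (v : E) (x : Mf U) : resM h (dM v x) = dM v (resM h x) := by
  obtain ⟨F, G, hF, hG, hG0, rfl⟩ := exists_toM_div x
  have hG0' : resM h (toM G hG) ≠ 0 :=
    (map_ne_zero_iff (resM h) (resM h).injective).2 hG0
  have e : ∀ {F : E → ℂ} (hF : AnalyticOnNhd ℂ F U),
      resM h (dM v (toM F hF)) = dM v (resM h (toM F hF)) := by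
    intro F hF
    rw [dM_toM, resM_toM, resM_toM, dM_toM]
  rw [map_div₀ (resM h) (toM F hF) (toM G hG), der_div _ _ _ hG0, map_div₀, der_div _ _ _ hG0',
    map_sub, map_mul, map_div₀, e hF, e hG]

end res

end Vale.Agent.P097.H690
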