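import Vale.Agent.P097.H690.Fct.Word
import Vale.Agent.P097.H456.Fct.B2

/-!
# P097, Case II : the natural chain and the star chain in the field of meromorphic functions on a
box (helper690)
-/

open Complex Metric Filter Topology Set

namespace Vale.Agent.P097.H690

open Vale.Agent.P097.H202
open Vale.Agent.P097.H456.Fct (Let Word Gl Tv SWord Box NBox Star nat Ctx jac jac_mid)
open Vale.Agent.P097.H456.Fct renaming mid → mdp
open Vale.Agent.P097.H367.FR (IsChain)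

section

variable {U : Set (ℂ × ℂ)} [hU : Dom U] {n : ℕ} {M : ℕ → ℂ → ℂ} {a q : ℕ → ℂ × ℂ → ℂ}

theorem Pm_eq (W : Word U n M a q) {j : ℕ} (hj : j < n) :
    Pm U M a j = toM (vp (M j) (a j) (a (j + 1))) (word_vp W hj) := tm_eq _

theorem Qm_eq (W : Word U n M a q) {j : ℕ} (hj : j < n) :
    Qm U M a j = toM (vq (M j) (a j) (a (j + 1))) (word_vq W hj) := tm_eq _

theorem Em_eq (W : Word U n M a q) {j : ℕ} (hj : j ≤ n) :
    Em U a j = toM (en (a j)) (word_en W hj) := tm_eq _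

theorem Mm_eq (W : Word U n M a q) {j : ℕ} (hj : j ≤ n) :
    Mm U a q j = toM (mo (a j) (q j)) (word_mo W hj) := tm_eq _

/-- slopes of two letters are different as soon as one Jacobian is not zero -/
theorem slope_ne {N : ℕ} {n' : ℕ} {M' : ℕ → ℂ → ℂ} {a' q' : ℕ → ℂ × ℂ → ℂ}
    (W : SWord U N n M a q) (W' : SWord U N n' M' a' q') {i j : ℕ} (hi : i < n) (hj : j < n')
    {u : ℂ × ℂ} (hu : u ∈ U)
    (hjac : jac (mdp (a i) (a (i + 1))) (mdp (a' j) (a' (j + 1))) u ≠ 0) :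
    dM (0, 1) (Qm U M a i) / dM (1, 0) (Qm U M a i) ≠
      dM (0, 1) (Qm U M' a' j) / dM (1, 0) (Qm U M' a' j) := by
  intro h
  have h1 := (div_eq_div_iff (sword_dq_ne W hi) (sword_dq_ne W' hj)).1 h
  rw [Qm_eq W.toWord hi, Qm_eq W'.toWord hj, dM_toM, dM_toM, dM_toM, dM_toM, toM_mul, toM_mul,
    toM_inj] at h1
  have h2 := h1 hu
  simp only at h2
  rw [word_fvq W.toWord hi hu, word_fvq W.toWord hi hu, word_fvq W'.toWord hj hu,
    word_fvq W'.toWord hj hu] at h2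
  set c : ℂ := -(I * (M i (mdp (a i) (a (i + 1)) u) +
    deriv (deriv (M i)) (mdp (a i) (a (i + 1)) u)) * exp (-(I * mdp (a i) (a (i + 1)) u))) with hc
  set c' : ℂ := -(I * (M' j (mdp (a' j) (a' (j + 1)) u) +
    deriv (deriv (M' j)) (mdp (a' j) (a' (j + 1)) u)) *
      exp (-(I * mdp (a' j) (a' (j + 1)) u))) with hc'
  have e1 : c ≠ 0 := neg_ne_zero.2 (mul_ne_zero (mul_ne_zero I_ne_zero (W.curv i hi u hu))
    (exp_ne_zero _))
  have e2 : c' ≠ 0 := neg_ne_zero.2 (mul_ne_zero (mul_ne_zero I_ne_zero (W'.curv j hj u hu))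
    (exp_ne_zero _))
  apply hjac
  have e3 : c * c' * jac (mdp (a i) (a (i + 1))) (mdp (a' j) (a' (j + 1))) u = 0 := by
    rw [jac]
    linear_combination -h2
  rcases mul_eq_zero.1 e3 with h4 | h4
  · exact absurd h4 (mul_ne_zero e1 e2)
  · exact h4

end

variable {κ Λ : ℝ} {H Φ : ℂ → ℂ} {r e : ℝ} {α p : ℂ → ℂ → ℂ} {J : ℂ → ℂ} {N n : ℕ} {t0 : ℝ}
  {r0 : ℝ}

/-- the slopes of the natural letters are different -/
theorem nat_slope (T : Ctx κ Λ H Φ r e α p J) (nb : NBox H r e α p N n t0 r0)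
    [hU : Dom (Box t0 r0)] {i j : ℕ} (hi : i < n) (hj : j < n) (hij : i ≠ j) :
    dM (0, 1) (Qm (Box t0 r0) (fun _ => H) (nat α N) i) /
        dM (1, 0) (Qm (Box t0 r0) (fun _ => H) (nat α N) i) ≠
      dM (0, 1) (Qm (Box t0 r0) (fun _ => H) (nat α N) j) /
        dM (1, 0) (Qm (Box t0 r0) (fun _ => H) (nat α N) j) := by
  have h1 := jac_mid T nb.N1 t0 hij
  have h2 : Tendsto (fun s : ℂ => ((t0 : ℂ), s)) (𝓝 0) (𝓝 ((t0 : ℂ), 0)) :=
    (continuous_const.prodMk continuous_id).continuousAt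
  have h3 : ∀ᶠ u in 𝓝 ((t0 : ℂ), (0 : ℂ)), u ∈ Box t0 r0 :=
    hU.o.mem_nhds ⟨mem_ball_self nb.pos, mem_ball_self nb.pos⟩
  have h4 := (h2.eventually (h1.and h3)).filter_mono (nhdsWithin_le_nhds (s := {0}ᶜ))
  obtain ⟨s, hs, hs0⟩ := (h4.and self_mem_nhdsWithin).exists
  exact slope_ne nb.sw nb.sw hi hj hs.2 (hs.1 hs0)

/-- the outer lines of the star word -/
theorem star_outer {M : ℕ → ℂ → ℂ} {a q : ℕ → ℂ × ℂ → ℂ} {U : Set (ℂ × ℂ)} [hU : Dom U]
    (S : Star κ H α p N n U M a q) :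
    Em U a 0 = Em U (nat α N) 0 ∧ Em U a n = Em U (nat α N) n ∧
      Mm U a q 0 = Mm U (nat α N) (nat p N) 0 ∧ Mm U a q n = Mm U (nat α N) (nat p N) n := by
  obtain ⟨k, hk⟩ := S.an
  have he : ∀ u ∈ U, exp (I * a n u) = exp (I * nat α N n u) := by
    intro u hu
    rw [hk u hu, mul_add, exp_add]
    have h1 : exp (I * (2 * Real.pi * k)) = 1 := by
      rw [show I * (2 * Real.pi * k) = k * (2 * Real.pi * I) by ring]
      exact exp_int_mul_two_pi_mul_I k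
    rw [h1, mul_one]
  refine ⟨tm_congr (word_en S.sw.toWord (Nat.zero_le _)) fun u hu => ?_,
    tm_congr (word_en S.sw.toWord le_rfl) fun u hu => ?_,
    tm_congr (word_mo S.sw.toWord (Nat.zero_le _)) fun u hu => ?_,
    tm_congr (word_mo S.sw.toWord le_rfl) fun u hu => ?_⟩
  · rw [en, en, S.a0 u hu]
  · rw [en, en, he u hu]
  · rw [mo, mo, S.a0 u hu, S.q0 u hu]
  · rw [mo, mo, he u hu, S.qn u hu]

end Vale.Agent.P097.H690
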