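import Vale.Agent.P097.H690.Fct.Fld
import Vale.Agent.P097.H456.Fct.Defs
import Vale.Agent.P097.H367.FR.Chain

/-!
# P097, Case II : words of lines as reflection chains in the field of meromorphic functions
(helper690)
-/

open Complex Metric Filter Topology Set

namespace Vale.Agent.P097.H690

open Vale.Agent.P097.H202
open Vale.Agent.P097.H456.Fct (Let Word Gl Tv SWord Box NBox Star nat Ctx)
open Vale.Agent.P097.H456.Fct renaming mid → mdp
open Vale.Agent.P097.H367.FR (IsChain)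

/-! ## total version of `toM` -/

section tm

variable {E : Type*} [NormedAddCommGroup E] [NormedSpace ℂ E] (U : Set E) [hU : Dom U]

open Classical in
/-- the element of the field of fractions given by a function, zero if it is not analytic -/
noncomputable def tm (F : E → ℂ) : Mf U := if h : AnalyticOnNhd ℂ F U then toM F h else 0

variable {U}

theorem tm_eq {F : E → ℂ} (h : AnalyticOnNhd ℂ F U) : tm U F = toM F h := by
  rw [tm, dif_pos h]

theorem tm_congr {F G : E → ℂ} (hF : AnalyticOnNhd ℂ F U) (h : EqOn F G U) : tm U F = tm U G := by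
  have hG : AnalyticOnNhd ℂ G U := hF.congr hU.o h
  rw [tm_eq hF, tm_eq hG]
  exact toM_congr h hG

end tm

/-! ## vertices, directions, momenta -/

/-- vertex of a letter, coordinate `x + i y` -/
noncomputable def vp (G : ℂ → ℂ) (a a' : ℂ × ℂ → ℂ) (u : ℂ × ℂ) : ℂ :=
  (G (mdp a a' u) + I * deriv G (mdp a a' u)) * exp (I * mdp a a' u)

/-- vertex of a letter, coordinate `x - i y` -/
noncomputable def vq (G : ℂ → ℂ) (a a' : ℂ × ℂ → ℂ) (u : ℂ × ℂ) : ℂ :=
  (G (mdp a a' u) - I * deriv G (mdp a a' u)) * exp (-(I * mdp a a' u))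

/-- direction of a line -/
noncomputable def en (a : ℂ × ℂ → ℂ) (u : ℂ × ℂ) : ℂ := I * exp (I * a u)

/-- `m = p - e² q` of a line -/
noncomputable def mo (a q : ℂ × ℂ → ℂ) (u : ℂ × ℂ) : ℂ := 2 * q u * exp (I * a u)

theorem let_left {G : ℂ → ℂ} {a q a' q' : ℂ} (h : Let G a q a' q') :
    (G ((a + a') / 2) + I * deriv G ((a + a') / 2)) * exp (I * ((a + a') / 2)) -
      (I * exp (I * a)) ^ 2 *
        ((G ((a + a') / 2) - I * deriv G ((a + a') / 2)) * exp (-(I * ((a + a') / 2)))) =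
      2 * q * exp (I * a) := by
  rw [h.1, cos, sin]
  set g := G ((a + a') / 2)
  set g' := deriv G ((a + a') / 2)
  have e1 : exp (I * a) = exp (I * ((a + a') / 2)) * exp (-((a' - a) / 2) * I) := by
    rw [← exp_add]
    congr 1
    ring
  have e2 : exp ((a' - a) / 2 * I) * exp (-((a' - a) / 2) * I) = 1 := by
    rw [← exp_add, neg_mul, add_neg_cancel, exp_zero]
  have e3 : exp (I * ((a + a') / 2)) * exp (-(I * ((a + a') / 2))) = 1 := by
    rw [← exp_add, add_neg_cancel, exp_zero]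
  rw [e1]
  set x := exp (I * ((a + a') / 2))
  set y := exp (-(I * ((a + a') / 2)))
  set c := exp ((a' - a) / 2 * I)
  set d := exp (-((a' - a) / 2) * I)
  have hI := I_sq
  linear_combination (-(x ^ 2 * d ^ 2 * (g - I * g') * y)) * hI +
    (x * d ^ 2 * (g - I * g')) * e3 - x * (g + I * g') * e2

theorem let_right {G : ℂ → ℂ} {a q a' q' : ℂ} (h : Let G a q a' q') :
    (G ((a + a') / 2) + I * deriv G ((a + a') / 2)) * exp (I * ((a + a') / 2)) -
      (I * exp (I * a')) ^ 2 *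
        ((G ((a + a') / 2) - I * deriv G ((a + a') / 2)) * exp (-(I * ((a + a') / 2)))) =
      2 * q' * exp (I * a') := by
  rw [h.2, cos, sin]
  set g := G ((a + a') / 2)
  set g' := deriv G ((a + a') / 2)
  have e1 : exp (I * a') = exp (I * ((a + a') / 2)) * exp ((a' - a) / 2 * I) := by
    rw [← exp_add]
    congr 1
    ring
  have e2 : exp ((a' - a) / 2 * I) * exp (-((a' - a) / 2) * I) = 1 := by
    rw [← exp_add, neg_mul, add_neg_cancel, exp_zero]
  have e3 : exp (I * ((a + a') / 2)) * exp (-(I * ((a + a') / 2))) = 1 := by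
    rw [← exp_add, add_neg_cancel, exp_zero]
  rw [e1]
  set x := exp (I * ((a + a') / 2))
  set y := exp (-(I * ((a + a') / 2)))
  set c := exp ((a' - a) / 2 * I)
  set d := exp (-((a' - a) / 2) * I)
  have hI := I_sq
  linear_combination (-(x ^ 2 * c ^ 2 * (g - I * g') * y)) * hI +
    (x * c ^ 2 * (g - I * g')) * e3 - x * (g + I * g') * e2


/-! ## derivatives -/

theorem fderiv_comp1 {F : ℂ → ℂ} {F' : ℂ} {ψ : ℂ × ℂ → ℂ} {u : ℂ × ℂ}
    (hF : HasDerivAt F F' (ψ u)) (hψ : AnalyticAt ℂ ψ u) (v : ℂ × ℂ) :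
    fderiv ℂ (fun x => F (ψ x)) u v = F' * fderiv ℂ ψ u v := by
  have h := hF.comp_hasFDerivAt u hψ.differentiableAt.hasFDerivAt
  have h1 : fderiv ℂ (fun x => F (ψ x)) u = F' • fderiv ℂ ψ u := h.fderiv
  rw [h1]
  rfl

theorem fderiv_t {F : ℂ × ℂ → ℂ} {u : ℂ × ℂ} (hF : AnalyticAt ℂ F u) :
    fderiv ℂ F u (1, 0) = deriv (fun t => F (t, u.2)) u.1 := by
  have h1 : HasFDerivAt F (fderiv ℂ F u) ((fun t : ℂ => (t, u.2)) u.1) :=
    hF.differentiableAt.hasFDerivAt
  have h2 : HasDerivAt (fun t : ℂ => (t, u.2)) ((1 : ℂ), (0 : ℂ)) u.1 :=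
    (hasDerivAt_id u.1).prodMk (hasDerivAt_const u.1 u.2)
  exact (h1.comp_hasDerivAt u.1 h2).deriv.symm

theorem fderiv_s {F : ℂ × ℂ → ℂ} {u : ℂ × ℂ} (hF : AnalyticAt ℂ F u) :
    fderiv ℂ F u (0, 1) = deriv (fun s => F (u.1, s)) u.2 := by
  have h1 : HasFDerivAt F (fderiv ℂ F u) ((fun s : ℂ => (u.1, s)) u.2) :=
    hF.differentiableAt.hasFDerivAt
  have h2 : HasDerivAt (fun s : ℂ => (u.1, s)) ((0 : ℂ), (1 : ℂ)) u.2 :=
    (hasDerivAt_const u.2 u.1).prodMk (hasDerivAt_id u.2)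
  exact (h1.comp_hasDerivAt u.2 h2).deriv.symm

theorem hasDerivAt_vp {G : ℂ → ℂ} {z : ℂ} (hG : AnalyticAt ℂ G z) :
    HasDerivAt (fun z => (G z + I * deriv G z) * exp (I * z))
      (I * (G z + deriv (deriv G) z) * exp (I * z)) z := by
  have h1 := hG.differentiableAt.hasDerivAt
  have h2 := hG.deriv.differentiableAt.hasDerivAt
  have h3 : HasDerivAt (fun z : ℂ => exp (I * z)) (exp (I * z) * (I * 1)) z :=
    ((hasDerivAt_id z).const_mul I).cexp
  have h := (h1.add (h2.const_mul I)).mul h3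
  refine h.congr_deriv ?_
  simp only [Pi.add_apply]
  linear_combination (deriv G z * exp (I * z)) * I_sq

theorem hasDerivAt_vq {G : ℂ → ℂ} {z : ℂ} (hG : AnalyticAt ℂ G z) :
    HasDerivAt (fun z => (G z - I * deriv G z) * exp (-(I * z)))
      (-(I * (G z + deriv (deriv G) z) * exp (-(I * z)))) z := by
  have h1 := hG.differentiableAt.hasDerivAt
  have h2 := hG.deriv.differentiableAt.hasDerivAt
  have h3 : HasDerivAt (fun z : ℂ => exp (-(I * z))) (exp (-(I * z)) * (-(I * 1))) z :=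
    ((hasDerivAt_id z).const_mul I).neg.cexp
  have h := (h1.sub (h2.const_mul I)).mul h3
  refine h.congr_deriv ?_
  simp only [Pi.sub_apply]
  linear_combination (deriv G z * exp (-(I * z))) * I_sq

variable {U : Set (ℂ × ℂ)} {n : ℕ} {M : ℕ → ℂ → ℂ} {a q : ℕ → ℂ × ℂ → ℂ}

section word

variable (W : Word U n M a q)
include W

theorem word_mid {j : ℕ} (hj : j < n) : AnalyticOnNhd ℂ (mdp (a j) (a (j + 1))) U :=
  fun u hu => ((W.aA j hj.le u hu).add (W.aA (j + 1) hj u hu)).div_const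

theorem word_mG {j : ℕ} (hj : j < n) :
    AnalyticOnNhd ℂ (fun u => M j (mdp (a j) (a (j + 1)) u)) U :=
  fun u hu => (W.mA j hj u hu).comp (word_mid W hj u hu)

theorem word_mG' {j : ℕ} (hj : j < n) :
    AnalyticOnNhd ℂ (fun u => deriv (M j) (mdp (a j) (a (j + 1)) u)) U :=
  fun u hu => (W.mA j hj u hu).deriv.comp (word_mid W hj u hu)

theorem word_vp {j : ℕ} (hj : j < n) : AnalyticOnNhd ℂ (vp (M j) (a j) (a (j + 1))) U :=
  fun u hu => ((word_mG W hj u hu).add (analyticAt_const.mul (word_mG' W hj u hu))).mul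
    (analyticAt_const.mul (word_mid W hj u hu)).cexp

theorem word_vq {j : ℕ} (hj : j < n) : AnalyticOnNhd ℂ (vq (M j) (a j) (a (j + 1))) U :=
  fun u hu => ((word_mG W hj u hu).sub (analyticAt_const.mul (word_mG' W hj u hu))).mul
    (analyticAt_const.mul (word_mid W hj u hu)).neg.cexp

theorem word_en {j : ℕ} (hj : j ≤ n) : AnalyticOnNhd ℂ (en (a j)) U :=
  fun u hu => analyticAt_const.mul (analyticAt_const.mul (W.aA j hj u hu)).cexp

theorem word_mo {j : ℕ} (hj : j ≤ n) : AnalyticOnNhd ℂ (mo (a j) (q j)) U :=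
  fun u hu => (analyticAt_const.mul (W.qA j hj u hu)).mul
    (analyticAt_const.mul (W.aA j hj u hu)).cexp

theorem word_fvp {j : ℕ} (hj : j < n) {u : ℂ × ℂ} (hu : u ∈ U) (v : ℂ × ℂ) :
    fderiv ℂ (vp (M j) (a j) (a (j + 1))) u v =
      I * (M j (mdp (a j) (a (j + 1)) u) + deriv (deriv (M j)) (mdp (a j) (a (j + 1)) u)) *
        exp (I * mdp (a j) (a (j + 1)) u) * fderiv ℂ (mdp (a j) (a (j + 1))) u v :=
  fderiv_comp1 (hasDerivAt_vp (W.mA j hj u hu)) (word_mid W hj u hu) v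

theorem word_fvq {j : ℕ} (hj : j < n) {u : ℂ × ℂ} (hu : u ∈ U) (v : ℂ × ℂ) :
    fderiv ℂ (vq (M j) (a j) (a (j + 1))) u v =
      -(I * (M j (mdp (a j) (a (j + 1)) u) + deriv (deriv (M j)) (mdp (a j) (a (j + 1)) u)) *
        exp (-(I * mdp (a j) (a (j + 1)) u))) * fderiv ℂ (mdp (a j) (a (j + 1))) u v :=
  fderiv_comp1 (hasDerivAt_vq (W.mA j hj u hu)) (word_mid W hj u hu) v

/-- the reflection law -/
theorem word_refl {j : ℕ} (hj : j < n) {u : ℂ × ℂ} (hu : u ∈ U) (v : ℂ × ℂ) :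
    fderiv ℂ (vp (M j) (a j) (a (j + 1))) u v = en (a j) u * en (a (j + 1)) u *
      fderiv ℂ (vq (M j) (a j) (a (j + 1))) u v := by
  rw [word_fvp W hj hu, word_fvq W hj hu, en, en]
  have e1 : exp (I * a j u) * exp (I * a (j + 1) u) * exp (-(I * mdp (a j) (a (j + 1)) u)) =
      exp (I * mdp (a j) (a (j + 1)) u) := by
    rw [← exp_add, ← exp_add]
    congr 1
    rw [mdp]
    ring
  set r := M j (mdp (a j) (a (j + 1)) u) + deriv (deriv (M j)) (mdp (a j) (a (j + 1)) u)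
  set D := fderiv ℂ (mdp (a j) (a (j + 1))) u v
  rw [← e1]
  linear_combination (I * r * D * exp (I * a j u) * exp (I * a (j + 1) u) *
    exp (-(I * mdp (a j) (a (j + 1)) u))) * I_sq

end word

/-- `Box` is a domain -/
theorem Dom.Box (t1 : ℂ) {r1 : ℝ} (hr : 0 < r1) : Dom (Box t1 r1) :=
  ⟨isOpen_ball.prod isOpen_ball, ((convex_ball _ _).prod (convex_ball _ _)).isPreconnected,
    ⟨(t1, 0), mem_ball_self hr, mem_ball_self hr⟩⟩

/-! ## field elements -/

/-- vertex `x + i y` of letter `j`, in the field -/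
noncomputable def Pm (U : Set (ℂ × ℂ)) [Dom U] (M : ℕ → ℂ → ℂ) (a : ℕ → ℂ × ℂ → ℂ) (j : ℕ) : Mf U :=
  tm U (vp (M j) (a j) (a (j + 1)))

/-- vertex `x - i y` of letter `j`, in the field -/
noncomputable def Qm (U : Set (ℂ × ℂ)) [Dom U] (M : ℕ → ℂ → ℂ) (a : ℕ → ℂ × ℂ → ℂ) (j : ℕ) : Mf U :=
  tm U (vq (M j) (a j) (a (j + 1)))

/-- direction of line `j`, in the field -/
noncomputable def Em (U : Set (ℂ × ℂ)) [Dom U] (a : ℕ → ℂ × ℂ → ℂ) (j : ℕ) : Mf U :=
  tm U (en (a j))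

/-- momentum of line `j`, in the field -/
noncomputable def Mm (U : Set (ℂ × ℂ)) [Dom U] (a q : ℕ → ℂ × ℂ → ℂ) (j : ℕ) : Mf U :=
  tm U (mo (a j) (q j))

section fieldw

variable [hU : Dom U] (W : Word U n M a q)
include W

theorem word_left {j : ℕ} (hj : j < n) :
    Pm U M a j - Em U a j ^ 2 * Qm U M a j = Mm U a q j := by
  rw [Pm, Qm, Em, Mm, tm_eq (word_vp W hj), tm_eq (word_vq W hj), tm_eq (word_en W hj.le),
    tm_eq (word_mo W hj.le), toM_pow, toM_mul, toM_sub, toM_inj]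
  intro u hu
  exact let_left (W.lt j hj u hu)

theorem word_right {j : ℕ} (hj : j < n) :
    Pm U M a j - Em U a (j + 1) ^ 2 * Qm U M a j = Mm U a q (j + 1) := by
  rw [Pm, Qm, Em, Mm, tm_eq (word_vp W hj), tm_eq (word_vq W hj), tm_eq (word_en W hj),
    tm_eq (word_mo W hj), toM_pow, toM_mul, toM_sub, toM_inj]
  intro u hu
  exact let_right (W.lt j hj u hu)

theorem word_der {j : ℕ} (hj : j < n) (v : ℂ × ℂ) :
    dM v (Pm U M a j) = Em U a j * Em U a (j + 1) * dM v (Qm U M a j) := by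
  rw [Pm, Qm, Em, Em, tm_eq (word_vp W hj), tm_eq (word_vq W hj), tm_eq (word_en W hj.le),
    tm_eq (word_en W hj), dM_toM, dM_toM, toM_mul, toM_mul, toM_inj]
  intro u hu
  exact word_refl W hj hu v

theorem word_e_ne {j : ℕ} (hj : j ≤ n) : Em U a j ≠ 0 := by
  obtain ⟨u, hu⟩ := hU.n
  rw [Em, tm_eq (word_en W hj)]
  exact toM_ne_zero hu (mul_ne_zero I_ne_zero (exp_ne_zero _))

end fieldw

theorem exists_s_ne (hU : Dom U) : ∃ u ∈ U, u.2 ≠ 0 := by
  obtain ⟨u, hu⟩ := hU.n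
  by_cases h : u.2 = 0
  · have h1 : ∀ᶠ s in 𝓝 (0 : ℂ), (u.1, s) ∈ U := by
      have h2 : Tendsto (fun s : ℂ => (u.1, s)) (𝓝 0) (𝓝 (u.1, 0)) :=
        (continuous_const.prodMk continuous_id).continuousAt
      have h3 : (u.1, (0 : ℂ)) ∈ U := by
        rw [← h]
        exact hu
      exact h2.eventually (hU.o.mem_nhds h3)
    have h4 : ∀ᶠ s in 𝓝[≠] (0 : ℂ), (u.1, s) ∈ U := h1.filter_mono nhdsWithin_le_nhds
    obtain ⟨s, hs, hs0⟩ := (h4.and self_mem_nhdsWithin).exists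
    exact ⟨_, hs, hs0⟩
  · exact ⟨u, hu, h⟩

theorem en_ne {a a' : ℂ} (h : sin ((a' - a) / 2) ≠ 0) : I * exp (I * a) ≠ I * exp (I * a') := by
  intro h0
  have h1 := mul_left_cancel₀ I_ne_zero h0
  obtain ⟨k, hk⟩ := exp_eq_exp_iff_exists_int.1 h1
  apply h
  rw [sin_eq_zero_iff]
  refine ⟨-k, ?_⟩
  have h2 : a = a' + k * (2 * Real.pi) := by
    apply mul_left_cancel₀ I_ne_zero
    rw [hk]
    ring
  rw [h2]
  push_cast
  ring

section sword

variable [hU : Dom U] {N : ℕ} (W : SWord U N n M a q)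
include W

theorem sword_e_ne {j : ℕ} (hj : j < n) : Em U a j ≠ Em U a (j + 1) := by
  obtain ⟨u, hu, hs⟩ := exists_s_ne hU
  rw [Em, Em, tm_eq (word_en W.toWord hj.le), tm_eq (word_en W.toWord hj), Ne, toM_inj]
  intro h
  exact en_ne (W.sn j hj u hu hs) (h hu)

omit hU in
theorem sword_mid_ne {j : ℕ} (hj : j < n) {u : ℂ × ℂ} (hu : u ∈ U) :
    fderiv ℂ (mdp (a j) (a (j + 1))) u (1, 0) ≠ 0 := by
  rw [fderiv_t (word_mid W.toWord hj u hu)]
  exact W.vt j hj u hu

omit hU in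
theorem sword_fvq_ne {j : ℕ} (hj : j < n) {u : ℂ × ℂ} (hu : u ∈ U) :
    fderiv ℂ (vq (M j) (a j) (a (j + 1))) u (1, 0) ≠ 0 := by
  rw [word_fvq W.toWord hj hu]
  exact mul_ne_zero (neg_ne_zero.2 (mul_ne_zero (mul_ne_zero I_ne_zero (W.curv j hj u hu))
    (exp_ne_zero _))) (sword_mid_ne W hj hu)

theorem sword_dq_ne {j : ℕ} (hj : j < n) : dM (1, 0) (Qm U M a j) ≠ 0 := by
  obtain ⟨u, hu⟩ := hU.n
  rw [Qm, tm_eq (word_vq W.toWord hj), dM_toM]
  exact toM_ne_zero hu (sword_fvq_ne W hj hu)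

/-- **a scaled word is a reflection chain** in the field of meromorphic functions on `U` -/
theorem sword_isChain (v₁ v₂ : ℂ × ℂ) :
    IsChain ((dM v₁ : Derivation ℂ (Mf U) (Mf U)).restrictScalars ℤ)
      ((dM v₂ : Derivation ℂ (Mf U) (Mf U)).restrictScalars ℤ) n (Pm U M a) (Qm U M a) (Em U a) where
  e_ne j hj := word_e_ne W.toWord hj
  ne j hj := sword_e_ne W hj
  inc j hj := by rw [word_left W.toWord hj, word_right W.toWord (by omega)]
  r1 j hj := word_der W.toWord hj v₁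
  r2 j hj := word_der W.toWord hj v₂

end sword

end Vale.Agent.P097.H690
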